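import Mathlib

/-!
# P295: coordinates and stable coordinates (definitions)
-/

namespace Vale.Agent.P295

open MvPolynomial

/-- `f` is a coordinate of `ℂ[x_j : j ∈ σ]`: some `ℂ`-algebra automorphism sends `f` to a
variable. -/
def IsCoordinate {σ : Type} (f : MvPolynomial σ ℂ) : Prop :=
  ∃ (φ : MvPolynomial σ ℂ ≃ₐ[ℂ] MvPolynomial σ ℂ) (i : σ), φ f = X i

/-- `f` is a stable coordinate of `R_n = ℂ[x_0, …, x_(n-1)]`: for some `m ≥ 1` it is a coordinate
of the polynomial ring `R_n[w_0, …, w_(m-1)]` in `n + m` variables. -/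
def IsStableCoordinate {n : ℕ} (f : MvPolynomial (Fin n) ℂ) : Prop :=
  ∃ m : ℕ, 1 ≤ m ∧ ∃ (φ : MvPolynomial (Fin m) (MvPolynomial (Fin n) ℂ) ≃ₐ[ℂ]
    MvPolynomial (Fin (n + m)) ℂ) (i : Fin (n + m)), φ (C f) = X i

/-- `g` depends on at most one variable, or has degree at most two, or is weighted homogeneous
for some positive weights of the variables -/
def IsSimple {n : ℕ} (g : MvPolynomial (Fin n) ℂ) : Prop :=
  (∃ i, g.vars ⊆ {i}) ∨ g.totalDegree ≤ 2 ∨
    ∃ (w : Fin n → ℕ) (d : ℕ), (∀ i, 0 < w i) ∧ IsWeightedHomogeneous w g d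

/-- `f` is a sum of simple polynomials in disjoint sets of variables -/
def IsSimpleSum {n : ℕ} (f : MvPolynomial (Fin n) ℂ) : Prop :=
  ∃ (k : ℕ) (β : Fin n → Fin k) (g : Fin k → MvPolynomial (Fin n) ℂ),
    (∀ j, IsSimple (g j)) ∧ (∀ j, ∀ i ∈ (g j).vars, β i = j) ∧ f = ∑ j, g j

/-- With `x` the variable number `0` and `y_i` the other variables,
`f = a(x) + ∑ b_i(x) y_i + h`, where `h` lies in the square of the ideal `(y_i : i)` and does not
involve the `y_i` with `b_i ≠ 0`; and at every common multiple zero `α` of the `b_i`, either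
`a'(α) = 0` or `x - α` divides `h`. (The last condition holds if `h = 0`, if `a` is constant, or
if the `b_i` have no common multiple zero.) -/
def IsFibrewise {n : ℕ} (f : MvPolynomial (Fin (n + 1)) ℂ) : Prop :=
  ∃ (a : Polynomial ℂ) (b : Fin n → Polynomial ℂ) (h : MvPolynomial (Fin (n + 1)) ℂ),
    f = Polynomial.aeval (X 0) a + ∑ i, Polynomial.aeval (X 0) (b i) * X i.succ + h ∧
    (∀ i, b i ≠ 0 → i.succ ∉ h.vars) ∧
    h ∈ Ideal.span (Set.range fun i : Fin n => (X i.succ : MvPolynomial (Fin (n + 1)) ℂ)) ^ 2 ∧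
    ∀ α : ℂ, (∀ i, (b i).eval α = 0 ∧ (Polynomial.derivative (b i)).eval α = 0) →
      (Polynomial.derivative a).eval α = 0 ∨ X 0 - C α ∣ h

end Vale.Agent.P295
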