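import Vale.Agent.P295.Simple

/-!
# P295: polynomials which are affine in most variables
-/

namespace Vale.Agent.P295

open MvPolynomial

theorem stable_map {n : ℕ} {f : MvPolynomial (Fin n) ℂ} (hf : IsStableCoordinate f)
    (A : MvPolynomial (Fin n) ℂ ≃ₐ[ℂ] MvPolynomial (Fin n) ℂ) : IsStableCoordinate (A f) := by
  obtain ⟨m, hm, φ, i, hφ⟩ := hf
  refine ⟨m, hm, (mapAlgEquiv (Fin m) A.symm).trans φ, i, ?_⟩
  rw [AlgEquiv.trans_apply, mapAlgEquiv_apply, map_C]
  have : (A.symm : MvPolynomial (Fin n) ℂ →+* MvPolynomial (Fin n) ℂ) (A f) = f :=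
    A.symm_apply_apply f
  rw [this, hφ]

theorem coord_of_map {σ : Type} {f : MvPolynomial σ ℂ}
    (A : MvPolynomial σ ℂ ≃ₐ[ℂ] MvPolynomial σ ℂ) (hf : IsCoordinate (A f)) :
    IsCoordinate f := by
  obtain ⟨φ, i, h⟩ := hf
  exact ⟨A.trans φ, i, by rw [AlgEquiv.trans_apply, h]⟩

theorem irr_X_sub {σ : Type} [DecidableEq σ] (i : σ) (c : ℂ) :
    Irreducible (X i - C c : MvPolynomial σ ℂ) := by
  have hco : coeff (Finsupp.single i 1) (X i - C c : MvPolynomial σ ℂ) = 1 := by
    rw [coeff_sub, coeff_X, if_pos rfl, coeff_C, if_neg, sub_zero]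
    intro h
    have := Finsupp.single_eq_zero.1 h.symm
    exact one_ne_zero this
  refine irreducible_of_totalDegree_eq_one ?_ ?_
  · apply le_antisymm
    · refine (totalDegree_sub _ _).trans ?_
      rw [totalDegree_X, totalDegree_C]
      simp
    · have h1 := le_totalDegree (p := (X i - C c : MvPolynomial σ ℂ)) (s := Finsupp.single i 1)
        (by rw [mem_support_iff, hco]; exact one_ne_zero)
      rwa [Finsupp.sum_single_index rfl] at h1
  · intro x hx
    have := hx (Finsupp.single i 1)
    rw [hco] at this
    exact isUnit_of_dvd_one this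

theorem stable_irr {n : ℕ} {f : MvPolynomial (Fin n) ℂ} (hf : IsStableCoordinate f) (c : ℂ)
    {g h : MvPolynomial (Fin n) ℂ} (hgh : f - C c = g * h) : IsUnit g ∨ IsUnit h := by
  classical
  obtain ⟨m, -, φ, i, hφ⟩ := hf
  have h1 : φ (C g) * φ (C h) = X i - C c := by
    rw [← map_mul, ← C_mul, ← hgh, C_sub, map_sub, hφ]
    congr 1
    exact φ.commutes c
  have hu : ∀ g : MvPolynomial (Fin n) ℂ, IsUnit (φ (C g)) → IsUnit g := by
    intro g hg
    have h2 : IsUnit (C g : MvPolynomial (Fin m) (MvPolynomial (Fin n) ℂ)) := by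
      have := hg.map φ.symm
      rwa [AlgEquiv.symm_apply_apply] at this
    have h3 := h2.map (eval (fun _ => (0 : MvPolynomial (Fin n) ℂ)))
    rwa [eval_C] at h3
  rcases (irr_X_sub i c).isUnit_or_isUnit h1.symm with h2 | h2
  · exact Or.inl (hu g h2)
  · exact Or.inr (hu h h2)

section Fib

variable {n : ℕ}

/-- `∑ b_i(x) y_i` -/
noncomputable def LL (b : Fin n → Polynomial ℂ) : MvPolynomial (Fin (n + 1)) ℂ :=
  ∑ i, Polynomial.aeval (X 0) (b i) * X i.succ

/-- the elementary substitution `y_i ↦ y_i - q(x) y_j` -/
noncomputable def el (i j : Fin n) (q : Polynomial ℂ) :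
    MvPolynomial (Fin (n + 1)) ℂ →ₐ[ℂ] MvPolynomial (Fin (n + 1)) ℂ :=
  aeval fun k => X k - if k = i.succ then Polynomial.aeval (X 0) q * X j.succ else 0

theorem el_X_of_ne {i j : Fin n} {q : Polynomial ℂ} {k : Fin (n + 1)} (hk : k ≠ i.succ) :
    el i j q (X k) = X k := by
  unfold el
  rw [aeval_X, if_neg hk, sub_zero]

theorem el_X_zero (i j : Fin n) (q : Polynomial ℂ) : el i j q (X 0) = X 0 :=
  el_X_of_ne (Fin.succ_ne_zero i).symm

theorem el_X_self (i j : Fin n) (q : Polynomial ℂ) :
    el i j q (X i.succ) = X i.succ - Polynomial.aeval (X 0) q * X j.succ := by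
  unfold el
  rw [aeval_X, if_pos rfl]

theorem el_aeval (i j : Fin n) (q a : Polynomial ℂ) :
    el i j q (Polynomial.aeval (X 0) a) = Polynomial.aeval (X 0) a := by
  rw [← Polynomial.aeval_algHom_apply, el_X_zero]

theorem el_comp {i j : Fin n} (hij : i ≠ j) (q : Polynomial ℂ) :
    (el i j q).comp (el i j (-q)) = AlgHom.id ℂ _ := by
  refine MvPolynomial.algHom_ext fun k => ?_
  rw [AlgHom.comp_apply, AlgHom.id_apply]
  by_cases hk : k = i.succ
  · subst hk
    rw [el_X_self, map_sub, el_X_self, map_mul, el_aeval,
      el_X_of_ne (fun h => hij (Fin.succ_injective n h).symm), map_neg]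
    ring
  · rw [el_X_of_ne hk, el_X_of_ne hk]

/-- the elementary automorphism -/
noncomputable def elE {i j : Fin n} (hij : i ≠ j) (q : Polynomial ℂ) :
    MvPolynomial (Fin (n + 1)) ℂ ≃ₐ[ℂ] MvPolynomial (Fin (n + 1)) ℂ :=
  AlgEquiv.ofAlgHom (el i j q) (el i j (-q)) (el_comp hij q)
    (by have := el_comp hij (-q); rwa [neg_neg] at this)

theorem el_LL {i j : Fin n} (hij : i ≠ j) (b : Fin n → Polynomial ℂ) (q : Polynomial ℂ) :
    el i j q (LL b) = LL (Function.update b j (b j - q * b i)) := by
  classical
  unfold LL
  rw [map_sum]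
  have h1 : ∀ k, el i j q (Polynomial.aeval (X 0) (b k) * X k.succ) =
      Polynomial.aeval (X 0) (b k) * X k.succ -
        if k = i then Polynomial.aeval (X 0) (q * b i) * X j.succ else 0 := by
    intro k
    rw [map_mul, el_aeval]
    by_cases hk : k = i
    · subst hk
      rw [el_X_self, if_pos rfl, map_mul]
      ring
    · rw [el_X_of_ne (fun h => hk (Fin.succ_injective n h)), if_neg hk, sub_zero]
  have h2 : ∀ k, Polynomial.aeval (X 0) (Function.update b j (b j - q * b i) k) * X k.succ =
      Polynomial.aeval (X 0) (b k) * X k.succ -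
        if k = j then Polynomial.aeval (X 0) (q * b i) *
          (X j.succ : MvPolynomial (Fin (n + 1)) ℂ) else 0 := by
    intro k
    by_cases hk : k = j
    · subst hk
      rw [Function.update_self, if_pos rfl, map_sub]
      ring
    · rw [Function.update_of_ne hk, if_neg hk, sub_zero]
  rw [Finset.sum_congr rfl fun k _ => h1 k, Finset.sum_congr rfl fun k _ => h2 k,
    Finset.sum_sub_distrib, Finset.sum_sub_distrib, Finset.sum_ite_eq', Finset.sum_ite_eq',
    if_pos (Finset.mem_univ _), if_pos (Finset.mem_univ _)]

/-- the size of the coefficients -/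
noncomputable def mu (b : Fin n → Polynomial ℂ) : ℕ :=
  ∑ i, if b i = 0 then 0 else (b i).natDegree + 1

theorem mu_lt {b : Fin n → Polynomial ℂ} {i j : Fin n} (hi : b i ≠ 0) (hj : b j ≠ 0)
    (hd : (b i).natDegree ≤ (b j).natDegree) :
    mu (Function.update b j (b j - b j / b i * b i)) < mu b := by
  classical
  unfold mu
  refine Finset.sum_lt_sum (fun k _ => ?_) ⟨j, Finset.mem_univ j, ?_⟩
  · by_cases hk : k = j
    · subst hk
      rw [Function.update_self]
      have h1 : b k - b k / b i * b i = b k % b i := by
        rw [mul_comm, ← EuclideanDomain.mod_eq_sub_mul_div]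
      rw [h1, if_neg hj]
      split_ifs with h2
      · exact Nat.zero_le _
      · have h3 := Polynomial.natDegree_mod_lt (b k) (q := b i) (fun h0 => by
          apply h2
          obtain ⟨c, hc⟩ := Polynomial.natDegree_eq_zero.1 h0
          have hc0 : c ≠ 0 := by
            rintro rfl
            exact hi (by rw [← hc, Polynomial.C_0])
          have hu : IsUnit (b i) := by
            rw [← hc]
            exact Polynomial.isUnit_C.2 (isUnit_iff_ne_zero.2 hc0)
          exact EuclideanDomain.mod_eq_zero.2 hu.dvd)
        omega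
    · rw [Function.update_of_ne hk]
  · rw [Function.update_self]
    have h1 : b j - b j / b i * b i = b j % b i := by
      rw [mul_comm, ← EuclideanDomain.mod_eq_sub_mul_div]
    rw [h1, if_neg hj]
    split_ifs with h2
    · exact Nat.succ_pos _
    · have h3 := Polynomial.natDegree_mod_lt (b j) (q := b i) (fun h0 => by
        apply h2
        obtain ⟨c, hc⟩ := Polynomial.natDegree_eq_zero.1 h0
        have hc0 : c ≠ 0 := by
          rintro rfl
          exact hi (by rw [← hc, Polynomial.C_0])
        have hu : IsUnit (b i) := by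
          rw [← hc]
          exact Polynomial.isUnit_C.2 (isUnit_iff_ne_zero.2 hc0)
        exact EuclideanDomain.mod_eq_zero.2 hu.dvd)
      omega

/-- **Reduction.** If the `b_i` have no common zero and `h` does not involve the `y_i` with
`b_i ≠ 0` then `h + ∑ b_i(x) y_i` is a coordinate. -/
theorem coord_of_noCommonZero (N : ℕ) : ∀ (b : Fin n → Polynomial ℂ), mu b = N →
    ∀ (h : MvPolynomial (Fin (n + 1)) ℂ), (∀ i, b i ≠ 0 → i.succ ∉ h.vars) →
    (∀ α : ℂ, ∃ i, (b i).eval α ≠ 0) → IsCoordinate (h + LL b) := by
  classical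
  induction N using Nat.strong_induction_on with
  | _ N ih =>
    intro b hN h hb hz
    by_cases h1 : ∃ i j, i ≠ j ∧ b i ≠ 0 ∧ b j ≠ 0 ∧ (b i).natDegree ≤ (b j).natDegree
    · obtain ⟨i, j, hij, hi, hj, hd⟩ := h1
      set b' := Function.update b j (b j - b j / b i * b i) with hb'
      have hlt : mu b' < N := by
        rw [← hN]
        exact mu_lt hi hj hd
      have hsub : ∀ k, b' k ≠ 0 → b k ≠ 0 := by
        intro k hk
        by_cases hkj : k = j
        · rw [hkj]
          exact hj
        · rwa [hb', Function.update_of_ne hkj] at hk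
      have h2 := ih _ hlt b' rfl h (fun k hk => hb k (hsub k hk)) (by
        intro α
        by_contra hcon
        push Not at hcon
        obtain ⟨k, hk⟩ := hz α
        have hi0 : (b i).eval α = 0 := by
          have := hcon i
          rwa [hb', Function.update_of_ne hij] at this
        by_cases hkj : k = j
        · apply hk
          have h3 := hcon j
          rw [hb', Function.update_self, Polynomial.eval_sub, Polynomial.eval_mul, hi0,
            mul_zero, sub_zero] at h3
          rw [hkj]
          exact h3
        · apply hk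
          have h3 := hcon k
          rwa [hb', Function.update_of_ne hkj] at h3)
      refine coord_of_map (elE hij (b j / b i)) ?_
      have h4 : elE hij (b j / b i) (h + LL b) = h + LL b' := by
        change el i j (b j / b i) (h + LL b) = _
        rw [map_add, el_LL hij]
        congr 1
        have := algHom_congr (g := h) (el i j (b j / b i)) (AlgHom.id ℂ _) (fun k hk => by
          rw [AlgHom.id_apply]
          refine el_X_of_ne ?_
          rintro rfl
          exact hb i hi hk)
        rw [this, AlgHom.id_apply]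
      rw [h4]
      exact h2
    · push Not at h1
      have huniq : ∀ i j, b i ≠ 0 → b j ≠ 0 → i = j := by
        intro i j hi hj
        by_contra hij
        have h2 := h1 i j hij hi hj
        have h3 := h1 j i (Ne.symm hij) hj hi
        omega
      obtain ⟨i, hi⟩ := hz 0
      have hi0 : b i ≠ 0 := by
        rintro h2
        rw [h2, Polynomial.eval_zero] at hi
        exact hi rfl
      have hother : ∀ j, j ≠ i → b j = 0 := by
        intro j hj
        by_contra h2
        exact hj (huniq j i h2 hi0)
      have hnz : ∀ α, (b i).eval α ≠ 0 := by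
        intro α
        obtain ⟨j, hj⟩ := hz α
        have hj0 : b j ≠ 0 := by
          rintro h2
          rw [h2, Polynomial.eval_zero] at hj
          exact hj rfl
        rwa [huniq j i hj0 hi0] at hj
      have hdeg : (b i).degree = 0 := by
        by_contra h2
        obtain ⟨α, hα⟩ := IsAlgClosed.exists_root _ h2
        exact hnz α hα
      have hbC := Polynomial.eq_C_of_degree_eq_zero hdeg
      set c := (b i).coeff 0 with hc
      have hc0 : c ≠ 0 := by
        intro h2
        rw [h2, Polynomial.C_0] at hbC
        exact hi0 hbC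
      have hL : LL b = C c * X i.succ := by
        unfold LL
        rw [Finset.sum_eq_single i]
        · rw [hbC, Polynomial.aeval_C, algebraMap_eq]
        · intro j _ hj
          rw [hother j hj, map_zero, zero_mul]
        · simp
      refine coordinate_of_slice (v := Pi.single i.succ 1) hc0 ?_
      rw [Finset.sum_eq_single i.succ]
      · rw [Pi.single_eq_same, C_1, one_mul, map_add,
          pderiv_eq_zero_of_notMem_vars (hb i hi0), zero_add, hL, pderiv_C_mul, pderiv_X_self,
          mul_one]
      · intro j _ hj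
        rw [Pi.single_eq_of_ne hj, C_0, zero_mul]
      · simp

end Fib

end Vale.Agent.P295
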