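import Vale.Agent.P295.Fib

/-!
# P295: the fibrewise class
-/

namespace Vale.Agent.P295

open MvPolynomial

variable {n : ℕ}

theorem pderiv_aeval_zero (a : Polynomial ℂ) :
    pderiv 0 (Polynomial.aeval (X 0 : MvPolynomial (Fin (n + 1)) ℂ) a) =
      Polynomial.aeval (X 0) (Polynomial.derivative a) := by
  rw [Derivation.map_aeval, pderiv_X_self, smul_eq_mul, mul_one]

theorem pderiv_aeval_succ (a : Polynomial ℂ) (k : Fin n) :
    pderiv k.succ (Polynomial.aeval (X 0 : MvPolynomial (Fin (n + 1)) ℂ) a) = 0 := by
  rw [Derivation.map_aeval, pderiv_X_of_ne (Fin.succ_ne_zero k).symm, smul_zero]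

theorem eval_aeval (p : Fin (n + 1) → ℂ) (a : Polynomial ℂ) :
    eval p (Polynomial.aeval (X 0 : MvPolynomial (Fin (n + 1)) ℂ) a) = a.eval (p 0) := by
  rw [Polynomial.aeval_def, Polynomial.hom_eval₂, eval_X]
  have : (eval p).comp (algebraMap ℂ (MvPolynomial (Fin (n + 1)) ℂ)) = RingHom.id ℂ := by
    ext a
    simp
  rw [this, Polynomial.eval₂_id]

theorem critical_of {a : Polynomial ℂ} {b : Fin n → Polynomial ℂ}
    {h : MvPolynomial (Fin (n + 1)) ℂ} {p : Fin (n + 1) → ℂ}
    (hb : ∀ i, (b i).eval (p 0) = 0)
    (h0 : (Polynomial.derivative a).eval (p 0) +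
      ∑ i, (Polynomial.derivative (b i)).eval (p 0) * p i.succ = 0)
    (hh : ∀ j, eval p (pderiv j h) = 0) :
    HasCritical (Polynomial.aeval (X 0) a + ∑ i, Polynomial.aeval (X 0) (b i) * X i.succ + h) := by
  classical
  refine ⟨p, fun j => ?_⟩
  rw [map_add, map_add, map_add, map_add, hh j, add_zero, map_sum, map_sum]
  refine Fin.cases ?_ (fun k => ?_) j
  · rw [pderiv_aeval_zero, eval_aeval, ← h0]
    congr 1
    refine Finset.sum_congr rfl fun i _ => ?_
    rw [pderiv_mul, pderiv_aeval_zero, pderiv_X_of_ne (Fin.succ_ne_zero i), mul_zero, add_zero,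
      map_mul, eval_aeval, eval_X]
  · rw [pderiv_aeval_succ, map_zero, zero_add]
    refine Finset.sum_eq_zero fun i _ => ?_
    rw [pderiv_mul, pderiv_aeval_succ, zero_mul, zero_add, map_mul, eval_aeval, hb i, zero_mul]

theorem eval_of_mem {p : Fin (n + 1) → ℂ} (hp : ∀ i : Fin n, p i.succ = 0)
    {u : MvPolynomial (Fin (n + 1)) ℂ}
    (hu : u ∈ Ideal.span (Set.range fun i : Fin n => (X i.succ : MvPolynomial (Fin (n + 1)) ℂ))) :
    eval p u = 0 := by
  have h1 : Ideal.span (Set.range fun i : Fin n => (X i.succ : MvPolynomial (Fin (n + 1)) ℂ)) ≤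
      RingHom.ker (eval p) := by
    rw [Ideal.span_le]
    rintro _ ⟨i, rfl⟩
    change eval p (X i.succ) = 0
    rw [eval_X, hp]
  exact h1 hu

theorem eval_pderiv_of_mem {p : Fin (n + 1) → ℂ} (hp : ∀ i : Fin n, p i.succ = 0)
    {h : MvPolynomial (Fin (n + 1)) ℂ}
    (hh : h ∈ Ideal.span (Set.range fun i : Fin n =>
      (X i.succ : MvPolynomial (Fin (n + 1)) ℂ)) ^ 2) (j : Fin (n + 1)) :
    eval p (pderiv j h) = 0 := by
  rw [pow_two] at hh
  refine Submodule.smul_induction_on hh (fun u hu v hv => ?_) (fun u v hu hv => ?_)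
  · rw [smul_eq_mul, pderiv_mul, map_add, map_mul, map_mul, eval_of_mem hp hu,
      eval_of_mem hp hv, mul_zero, zero_mul, add_zero]
  · rw [map_add, map_add, hu, hv, add_zero]

theorem not_hasCritical {n : ℕ} {f : MvPolynomial (Fin n) ℂ} (hf : IsStableCoordinate f) :
    ¬ HasCritical f := by
  rintro ⟨p, hp⟩
  obtain ⟨j, hj⟩ := no_critical hf p
  exact hj (hp j)

/-- **The fibrewise class.** -/
theorem coordinate_of_fibrewise {f : MvPolynomial (Fin (n + 1)) ℂ} (hf : IsStableCoordinate f)
    (hF : IsFibrewise f) : IsCoordinate f := by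
  classical
  obtain ⟨a, b, h, hfe, hv, hI, hα⟩ := hF
  by_cases hz : ∀ α : ℂ, ∃ i, (b i).eval α ≠ 0
  · have h1 : f = (h + Polynomial.aeval (X 0) a) + LL b := by
      rw [hfe]
      unfold LL
      ring
    rw [h1]
    refine coord_of_noCommonZero _ b rfl _ (fun i hi => notMem_vars ?_) hz
    rw [map_add, pderiv_aeval_succ, add_zero, pderiv_eq_zero_of_notMem_vars (hv i hi)]
  · push Not at hz
    obtain ⟨α, hz⟩ := hz
    by_cases hA : ∃ i, (Polynomial.derivative (b i)).eval α ≠ 0
    · exfalso
      obtain ⟨i, hi⟩ := hA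
      have hbi : b i ≠ 0 := by
        rintro h1
        rw [h1, Polynomial.derivative_zero, Polynomial.eval_zero] at hi
        exact hi rfl
      set s : ℂ := -(Polynomial.derivative a).eval α / (Polynomial.derivative (b i)).eval α with hs
      set p : Fin (n + 1) → ℂ := Fin.cons α (Pi.single i s) with hp
      have hp0 : p 0 = α := by rw [hp, Fin.cons_zero]
      have hps : ∀ k : Fin n, p k.succ = (Pi.single i s : Fin n → ℂ) k := by
        intro k
        rw [hp, Fin.cons_succ]
      refine not_hasCritical hf ?_
      rw [hfe]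
      refine critical_of (p := p) (fun k => by rw [hp0]; exact hz k) ?_ (fun j => ?_)
      · rw [hp0, Finset.sum_eq_single i]
        · rw [hps, Pi.single_eq_same, hs]
          field_simp
          ring
        · intro k _ hk
          rw [hps, Pi.single_eq_of_ne hk, mul_zero]
        · simp
      · have h1 : eval p (pderiv j h) = eval (Fin.cons α (fun _ => 0) : Fin (n + 1) → ℂ)
            (pderiv j h) := by
          refine eval_congr_vars fun k hk => ?_
          have hk1 := vars_pderiv hk
          revert hk1
          refine Fin.cases ?_ (fun l => ?_) k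
          · intro _
            rw [hp0, Fin.cons_zero]
          · intro hl
            rw [hps, Fin.cons_succ, Pi.single_eq_of_ne]
            rintro rfl
            exact hv _ hbi hl
        rw [h1]
        exact eval_pderiv_of_mem (fun i => by rw [Fin.cons_succ]) hI j
    · push Not at hA
      rcases hα α (fun i => ⟨hz i, hA i⟩) with h1 | h1
      · exfalso
        refine not_hasCritical hf ?_
        rw [hfe]
        set p : Fin (n + 1) → ℂ := Fin.cons α (fun _ => 0) with hp
        have hp0 : p 0 = α := by rw [hp, Fin.cons_zero]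
        have hps : ∀ k : Fin n, p k.succ = 0 := by
          intro k
          rw [hp, Fin.cons_succ]
        refine critical_of (p := p) (fun k => by rw [hp0]; exact hz k) ?_
          (fun j => eval_pderiv_of_mem hps hI j)
        rw [hp0, h1, Finset.sum_eq_zero (fun i _ => by rw [hps, mul_zero]), add_zero]
      · obtain ⟨h', rfl⟩ := h1
        obtain ⟨a', ha'⟩ : Polynomial.X - Polynomial.C α ∣ a - Polynomial.C (a.eval α) :=
          Polynomial.X_sub_C_dvd_sub_C_eval
        have hb' : ∀ i, ∃ c, b i = (Polynomial.X - Polynomial.C α) * c := fun i =>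
          Polynomial.dvd_iff_isRoot.2 (hz i)
        choose b' hb' using hb'
        have hX : Polynomial.aeval (X 0 : MvPolynomial (Fin (n + 1)) ℂ)
            (Polynomial.X - Polynomial.C α) = X 0 - C α := by
          rw [map_sub, Polynomial.aeval_X, Polynomial.aeval_C, algebraMap_eq]
        have hfac : f - C (a.eval α) = (X 0 - C α) *
            (Polynomial.aeval (X 0) a' + ∑ i, Polynomial.aeval (X 0) (b' i) * X i.succ + h') := by
          have h2 : Polynomial.aeval (X 0 : MvPolynomial (Fin (n + 1)) ℂ) a - C (a.eval α) =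
              (X 0 - C α) * Polynomial.aeval (X 0) a' := by
            have h3 := congrArg (Polynomial.aeval (X 0 : MvPolynomial (Fin (n + 1)) ℂ)) ha'
            rw [map_sub, map_mul, hX, Polynomial.aeval_C, algebraMap_eq] at h3
            exact h3
          have h4 : ∑ i, Polynomial.aeval (X 0 : MvPolynomial (Fin (n + 1)) ℂ) (b i) * X i.succ =
              (X 0 - C α) * ∑ i, Polynomial.aeval (X 0) (b' i) * X i.succ := by
            rw [Finset.mul_sum]
            refine Finset.sum_congr rfl fun i _ => ?_
            rw [hb' i, map_mul, hX]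
            ring
          rw [hfe, h4, mul_add, mul_add, ← h2]
          ring
        rcases stable_irr hf _ hfac with hu | hu
        · exfalso
          have h2 := hu.map (eval (fun _ => α))
          rw [map_sub, eval_X, eval_C, sub_self] at h2
          exact not_isUnit_zero h2
        · obtain ⟨c, hc, hQ⟩ := isUnit_iff_eq_C_of_isReduced.1 hu
          rw [hQ] at hfac
          have h2 : f = C (a.eval α) + (X 0 - C α) * C c := by
            rw [← hfac]
            ring
          refine coordinate_of_slice (v := Pi.single 0 1) hc.ne_zero ?_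
          rw [Finset.sum_eq_single 0]
          · rw [Pi.single_eq_same, C_1, one_mul, h2, map_add, pderiv_C, zero_add, pderiv_mul,
              map_sub, pderiv_X_self, pderiv_C, pderiv_C]
            ring
          · intro j _ hj
            rw [Pi.single_eq_of_ne hj, C_0, zero_mul]
          · simp

/-- the main theorem -/
theorem main (f : MvPolynomial (Fin (n + 1)) ℂ) (hf : IsStableCoordinate f)
    (A : MvPolynomial (Fin (n + 1)) ℂ ≃ₐ[ℂ] MvPolynomial (Fin (n + 1)) ℂ)
    (hA : IsSimpleSum (A f) ∨ IsFibrewise (A f)) : IsCoordinate f := by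
  have hAf := stable_map hf A
  refine coord_of_map A ?_
  rcases hA with h | h
  · exact coordinate_of_simpleSum h (not_hasCritical hAf)
  · exact coordinate_of_fibrewise hAf h

end Vale.Agent.P295
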