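import Vale.Agent.P295.Slice

/-!
# P295: simple polynomials without critical points have slices
-/

namespace Vale.Agent.P295

open MvPolynomial

variable {n : ℕ}

/-- some directional derivative is a nonzero constant -/
def HasSlice (g : MvPolynomial (Fin n) ℂ) : Prop :=
  ∃ (v : Fin n → ℂ) (c : ℂ), c ≠ 0 ∧ ∑ j, C (v j) * pderiv j g = C c

/-- there is a critical point -/
def HasCritical (g : MvPolynomial (Fin n) ℂ) : Prop :=
  ∃ p : Fin n → ℂ, ∀ j, eval p (pderiv j g) = 0

theorem hasSlice_of_pderiv {g : MvPolynomial (Fin n) ℂ} {i : Fin n} {c : ℂ} (hc : c ≠ 0)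
    (h : pderiv i g = C c) : HasSlice g := by
  refine ⟨Pi.single i 1, c, hc, ?_⟩
  rw [Finset.sum_eq_single i]
  · rw [Pi.single_eq_same, C_1, one_mul, h]
  · intro j _ hj
    rw [Pi.single_eq_of_ne hj, C_0, zero_mul]
  · simp

theorem case_univ {g : MvPolynomial (Fin n) ℂ} {i : Fin n} (hi : g.vars ⊆ {i}) :
    HasSlice g ∨ HasCritical g := by
  classical
  set G : Polynomial ℂ := aeval (fun _ => Polynomial.X) g with hG
  have hg : g = Polynomial.aeval (X i : MvPolynomial (Fin n) ℂ) G := by
    have h1 := algHom_congr (g := g) (AlgHom.id ℂ _)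
      ((Polynomial.aeval (X i : MvPolynomial (Fin n) ℂ)).comp
        (aeval (fun _ => (Polynomial.X : Polynomial ℂ)))) (fun j hj => by
          have := hi hj
          rw [Finset.mem_singleton] at this
          subst this
          simp)
    rw [AlgHom.id_apply, AlgHom.comp_apply] at h1
    exact h1
  have hd : pderiv i g = Polynomial.aeval (X i : MvPolynomial (Fin n) ℂ) (Polynomial.derivative G) := by
    conv_lhs => rw [hg]
    rw [Derivation.map_aeval, pderiv_X_self, smul_eq_mul, mul_one]
  by_cases h0 : (Polynomial.derivative G).degree = 0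
  · left
    have h1 := Polynomial.eq_C_of_degree_eq_zero h0
    set c := (Polynomial.derivative G).coeff 0 with hc
    have hc0 : c ≠ 0 := by
      intro h
      rw [h1, h, Polynomial.C_0, Polynomial.degree_zero] at h0
      exact absurd h0 (by simp)
    refine hasSlice_of_pderiv (i := i) hc0 ?_
    rw [hd, h1, Polynomial.aeval_C, algebraMap_eq]
  · right
    obtain ⟨t, ht⟩ := IsAlgClosed.exists_root _ h0
    refine ⟨fun _ => t, fun j => ?_⟩
    by_cases hj : j = i
    · subst hj
      rw [hd]
      have h1 : eval (fun _ => t) (Polynomial.aeval (X j : MvPolynomial (Fin n) ℂ)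
          (Polynomial.derivative G)) = Polynomial.eval t (Polynomial.derivative G) := by
        rw [Polynomial.aeval_def, Polynomial.hom_eval₂, eval_X]
        have : (eval (fun _ : Fin n => t)).comp (algebraMap ℂ (MvPolynomial (Fin n) ℂ)) =
            RingHom.id ℂ := by
          ext a
          simp
        rw [this, Polynomial.eval₂_id]
      rw [h1]
      exact ht
    · rw [pderiv_eq_zero_of_notMem_vars, map_zero]
      intro h
      exact hj (Finset.mem_singleton.1 (hi h))

theorem affine_of_coeff {h : MvPolynomial (Fin n) ℂ}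
    (hh : ∀ m : Fin n →₀ ℕ, 2 ≤ ∑ i, m i → coeff m h = 0) :
    h = C (coeff 0 h) + ∑ k, C (coeff (Finsupp.single k 1) h) * X k := by
  classical
  ext m
  rw [coeff_add, coeff_C, coeff_sum]
  simp only [coeff_C_mul, coeff_X]
  rcases Nat.lt_or_ge (∑ i, m i) 2 with h2 | h2
  · rcases Nat.eq_zero_or_pos (∑ i, m i) with h0 | h0
    · have hm : m = 0 := by
        ext i
        exact (Finset.sum_eq_zero_iff.1 h0) i (Finset.mem_univ i)
      subst hm
      rw [if_pos rfl, Finset.sum_eq_zero, add_zero]
      intro k _
      rw [if_neg (by simp), mul_zero]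
    · obtain ⟨k, hk⟩ : ∃ k, m k ≠ 0 := by
        by_contra hcon
        push Not at hcon
        rw [Finset.sum_eq_zero (fun i _ => hcon i)] at h0
        exact lt_irrefl _ h0
      have hm : m = Finsupp.single k 1 := by
        have h3 : m k + ∑ i ∈ Finset.univ.erase k, m i = ∑ i, m i :=
          Finset.add_sum_erase Finset.univ (fun i => m i) (Finset.mem_univ k)
        have h4 : ∑ i ∈ Finset.univ.erase k, m i = 0 := by omega
        have h5 : m k = 1 := by omega
        ext i
        by_cases hi : i = k
        · subst hi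
          simp [h5]
        · rw [Finsupp.single_eq_of_ne hi]
          exact (Finset.sum_eq_zero_iff.1 h4) i (Finset.mem_erase.2 ⟨hi, Finset.mem_univ i⟩)
      subst hm
      rw [if_neg (by simp [eq_comm]), zero_add, Finset.sum_eq_single k]
      · simp
      · intro j _ hj
        rw [if_neg (fun h => hj (Finsupp.single_left_injective one_ne_zero h)), mul_zero]
      · simp
  · rw [hh m h2, if_neg, zero_add, Finset.sum_eq_zero]
    · intro k _
      rw [if_neg, mul_zero]
      intro hm
      rw [← hm] at h2
      simp [Finsupp.single_apply] at h2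
    · intro hm
      rw [← hm] at h2
      simp at h2

theorem case_quad {g : MvPolynomial (Fin n) ℂ} (hg : g.totalDegree ≤ 2) :
    HasSlice g ∨ HasCritical g := by
  classical
  have haff : ∀ j, pderiv j g = C (coeff 0 (pderiv j g)) +
      ∑ k, C (coeff (Finsupp.single k 1) (pderiv j g)) * X k := by
    intro j
    refine affine_of_coeff fun m hm => ?_
    rw [coeff_pderiv, coeff_eq_zero_of_totalDegree_lt, zero_mul]
    refine lt_of_le_of_lt hg ?_
    have h1 : ∑ i ∈ (m + Finsupp.single j 1 : Fin n →₀ ℕ).support,
        (m + Finsupp.single j 1 : Fin n →₀ ℕ) i =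
        ∑ i, (m + Finsupp.single j 1 : Fin n →₀ ℕ) i :=
      Finset.sum_subset (Finset.subset_univ _) (fun i _ hi => by
        simpa using hi)
    rw [h1]
    simp only [Finsupp.add_apply, Finset.sum_add_distrib]
    have h2 : ∑ i, (Finsupp.single j 1 : Fin n →₀ ℕ) i = 1 := by
      simp [Finsupp.single_apply]
    rw [h2]
    omega
  set b : Fin n → ℂ := fun j => coeff 0 (pderiv j g) with hb
  set col : Fin n → (Fin n → ℂ) := fun k j => coeff (Finsupp.single k 1) (pderiv j g) with hcol
  by_cases hmem : b ∈ Submodule.span ℂ (Set.range col)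
  · right
    obtain ⟨x, hx⟩ := (Submodule.mem_span_range_iff_exists_fun ℂ).1
      (Submodule.neg_mem _ hmem)
    refine ⟨x, fun j => ?_⟩
    rw [haff j, map_add, eval_C, map_sum]
    have h1 := congrFun hx j
    simp only [Finset.sum_apply, Pi.smul_apply, smul_eq_mul, Pi.neg_apply, hcol, hb] at h1
    have h2 : ∑ k, eval x (C (coeff (Finsupp.single k 1) (pderiv j g)) * X k) =
        ∑ k, x k * coeff (Finsupp.single k 1) (pderiv j g) :=
      Finset.sum_congr rfl fun k _ => by rw [map_mul, eval_C, eval_X, mul_comm]
    rw [h2, h1]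
    ring
  · left
    obtain ⟨l, hl1, hl2⟩ := Submodule.exists_le_ker_of_notMem hmem
    have hl : ∀ x : Fin n → ℂ, l x = ∑ j, x j * l (Pi.single j 1) := by
      intro x
      conv_lhs => rw [pi_eq_sum_univ' x]
      rw [map_sum]
      exact Finset.sum_congr rfl fun j _ => by rw [map_smul, smul_eq_mul]
    refine ⟨fun j => l (Pi.single j 1), l b, hl1, ?_⟩
    have h1 : ∀ k, ∑ j, l (Pi.single j 1) * coeff (Finsupp.single k 1) (pderiv j g) = 0 := by
      intro k
      have h2 : l (col k) = 0 := hl2 (Submodule.subset_span ⟨k, rfl⟩)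
      rw [hl] at h2
      rw [← h2]
      exact Finset.sum_congr rfl fun j _ => by rw [mul_comm]
    have h3 : ∀ j, C (l (Pi.single j 1)) * pderiv j g = C (b j * l (Pi.single j 1)) +
        ∑ k, C (l (Pi.single j 1) * coeff (Finsupp.single k 1) (pderiv j g)) * X k := by
      intro j
      conv_lhs => rw [haff j]
      rw [mul_add, Finset.mul_sum, ← C_mul, mul_comm (l _) _]
      congr 1
      exact Finset.sum_congr rfl fun k _ => by rw [C_mul, mul_assoc]
    rw [Finset.sum_congr rfl fun j _ => h3 j, Finset.sum_add_distrib, Finset.sum_comm,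
      ← map_sum, ← hl b]
    rw [Finset.sum_eq_zero (s := Finset.univ) (f := fun k => ∑ j,
      C (l (Pi.single j 1) * coeff (Finsupp.single k 1) (pderiv j g)) * X k), add_zero]
    intro k _
    rw [← Finset.sum_mul, ← map_sum, h1 k, C_0, zero_mul]

theorem case_wh {g : MvPolynomial (Fin n) ℂ} {w : Fin n → ℕ} {d : ℕ} (hw : ∀ i, 0 < w i)
    (hg : IsWeightedHomogeneous w g d) : HasSlice g ∨ HasCritical g := by
  classical
  by_cases h : ∀ j, eval (0 : Fin n → ℂ) (pderiv j g) = 0
  · exact Or.inr ⟨0, h⟩
  · left
    push Not at h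
    obtain ⟨j, hj⟩ := h
    have h0 : coeff 0 (pderiv j g) ≠ 0 := by
      intro h1
      apply hj
      have h2 : eval (0 : Fin n → ℂ) (pderiv j g) = constantCoeff (pderiv j g) := by
        rw [← eval_zero]
      rw [h2, constantCoeff_eq]
      exact h1
    refine hasSlice_of_pderiv (i := j) h0 ?_
    have hwj : w j = d := by
      rw [coeff_pderiv, zero_add] at h0
      have h1 := hg (left_ne_zero_of_mul h0)
      rw [Finsupp.weight_apply, Finsupp.sum_single_index (by simp)] at h1
      simpa using h1
    ext m
    rw [coeff_C]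
    by_cases hm : 0 = m
    · rw [if_pos hm, hm]
    · rw [if_neg hm, coeff_pderiv]
      have h1 : coeff (m + Finsupp.single j 1) g = 0 := by
        by_contra h2
        have h3 := hg h2
        rw [map_add] at h3
        have h4 : Finsupp.weight w (Finsupp.single j 1) = w j := by
          rw [Finsupp.weight_apply, Finsupp.sum_single_index (by simp)]
          simp
        rw [h4, hwj] at h3
        have h5 : Finsupp.weight w m = 0 := by omega
        apply hm
        ext i
        have h6 := Finsupp.le_weight w (hw i).ne' m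
        rw [h5] at h6
        simp only [Finsupp.coe_zero, Pi.zero_apply]
        omega
      rw [h1, zero_mul]

theorem simple_slice {g : MvPolynomial (Fin n) ℂ} (hg : IsSimple g) :
    HasSlice g ∨ HasCritical g := by
  rcases hg with ⟨i, hi⟩ | h | ⟨w, d, hw, h⟩
  · exact case_univ hi
  · exact case_quad h
  · exact case_wh hw h

theorem vars_pderiv {g : MvPolynomial (Fin n) ℂ} {i j : Fin n} (h : i ∈ (pderiv j g).vars) :
    i ∈ g.vars := by
  classical
  obtain ⟨d, hd, hdi⟩ := (mem_vars_iff_mem_support i).1 h
  rw [mem_support_iff, coeff_pderiv] at hd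
  refine (mem_vars_iff_mem_support i).2 ⟨d + Finsupp.single j 1,
    mem_support_iff.2 (left_ne_zero_of_mul hd), ?_⟩
  rw [Finsupp.mem_support_iff] at hdi ⊢
  rw [Finsupp.add_apply]
  omega

theorem eval_congr_vars {g : MvPolynomial (Fin n) ℂ} {p q : Fin n → ℂ}
    (h : ∀ i ∈ g.vars, p i = q i) : eval p g = eval q g := by
  exact hom_congr_vars (f₁ := eval p) (f₂ := eval q) (p₁ := g) (p₂ := g)
    (by ext a; simp) (fun j hj _ => by simpa using h j hj) rfl

/-- sums of simple polynomials in disjoint sets of variables -/
theorem coordinate_of_simpleSum {f : MvPolynomial (Fin n) ℂ} (hf : IsSimpleSum f)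
    (hc : ¬ HasCritical f) : IsCoordinate f := by
  classical
  obtain ⟨k, β, g, hg, hβ, rfl⟩ := hf
  have hz : ∀ j l, β j ≠ l → pderiv j (g l) = 0 := by
    intro j l hjl
    exact pderiv_eq_zero_of_notMem_vars fun h => hjl (hβ l j h)
  by_cases hall : ∀ l, HasCritical (g l)
  · exfalso
    choose p hp using hall
    refine hc ⟨fun i => p (β i) i, fun j => ?_⟩
    rw [map_sum, map_sum, Finset.sum_eq_single (β j)]
    · rw [← hp (β j) j]
      refine eval_congr_vars fun i hi => ?_
      rw [hβ (β j) i (vars_pderiv hi)]
    · intro l _ hl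
      rw [hz j l (Ne.symm hl), map_zero]
    · simp
  · push Not at hall
    obtain ⟨l, hl⟩ := hall
    rcases simple_slice (hg l) with ⟨v, c, hc0, hv⟩ | h
    · refine coordinate_of_slice (v := fun j => if β j = l then v j else 0) hc0 ?_
      rw [← hv]
      refine Finset.sum_congr rfl fun j _ => ?_
      rw [map_sum]
      by_cases hj : β j = l
      · rw [if_pos hj, Finset.sum_eq_single l]
        · intro l' _ hl'
          rw [hz j l' (by rw [hj]; exact Ne.symm hl')]
        · simp
      · rw [if_neg hj, C_0, zero_mul, hz j l hj, mul_zero]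
    · exact absurd h hl

end Vale.Agent.P295
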