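import Vale.Agent.P295.Defs

/-!
# P295: polynomials with a constant directional derivative; critical points
-/

namespace Vale.Agent.P295

open MvPolynomial

section Slice

variable {σ : Type} [DecidableEq σ]

/-- the linear substitution `x_j ↦ x_j + v_j x_i` (`j ≠ i`), `x_i ↦ v_i x_i` -/
noncomputable def th (v : σ → ℂ) (i : σ) : MvPolynomial σ ℂ →ₐ[ℂ] MvPolynomial σ ℂ :=
  aeval fun j => (if j = i then 0 else X j) + C (v j) * X i

/-- its inverse -/
noncomputable def th' (v : σ → ℂ) (i : σ) : MvPolynomial σ ℂ →ₐ[ℂ] MvPolynomial σ ℂ :=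
  aeval fun j => if j = i then C (v i)⁻¹ * X i else X j - C (v j * (v i)⁻¹) * X i

theorem th_th' {v : σ → ℂ} {i : σ} (hi : v i ≠ 0) :
    (th v i).comp (th' v i) = AlgHom.id ℂ _ := by
  refine MvPolynomial.algHom_ext fun j => ?_
  rw [AlgHom.comp_apply, AlgHom.id_apply]
  unfold th th'
  rw [aeval_X]
  by_cases hj : j = i
  · subst hj
    simp only [if_true, map_mul, algHom_C, aeval_X, zero_add]
    rw [← mul_assoc, algebraMap_eq, ← C_mul, inv_mul_cancel₀ hi, C_1, one_mul]
  · simp only [hj, if_false, map_sub, map_mul, algHom_C, aeval_X, if_true, zero_add,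
      algebraMap_eq]
    rw [mul_assoc (C (v j)), ← mul_assoc (C (v i)⁻¹), ← C_mul, inv_mul_cancel₀ hi, C_1, one_mul]
    ring

theorem th'_th {v : σ → ℂ} {i : σ} (hi : v i ≠ 0) :
    (th' v i).comp (th v i) = AlgHom.id ℂ _ := by
  refine MvPolynomial.algHom_ext fun j => ?_
  rw [AlgHom.comp_apply, AlgHom.id_apply]
  unfold th th'
  rw [aeval_X]
  by_cases hj : j = i
  · subst hj
    simp only [if_true, zero_add, map_mul, algHom_C, aeval_X, algebraMap_eq]
    rw [← mul_assoc, ← C_mul, mul_inv_cancel₀ hi, C_1, one_mul]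
  · simp only [hj, if_false, map_add, map_mul, algHom_C, aeval_X, if_true, algebraMap_eq]
    rw [← mul_assoc, ← C_mul]
    ring

theorem pderiv_th (v : σ → ℂ) (i : σ) [Fintype σ] (f : MvPolynomial σ ℂ) :
    pderiv i (th v i f) = th v i (∑ j, C (v j) * pderiv j f) := by
  induction f using MvPolynomial.induction_on with
  | C a => simp [th]
  | add p q hp hq =>
    rw [map_add, map_add, hp, hq, ← map_add, ← Finset.sum_add_distrib]
    simp only [map_add, mul_add]
  | mul_X p j hp =>
    have h1 : ∑ k, C (v k) * pderiv k (p * X j) =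
        (∑ k, C (v k) * pderiv k p) * X j + p * C (v j) := by
      have h2 : ∀ k, C (v k) * pderiv k (p * X j) = C (v k) * pderiv k p * X j +
          p * (C (v k) * (Pi.single (M := fun _ => MvPolynomial σ ℂ) k 1 j)) := by
        intro k
        rw [pderiv_mul, pderiv_X]
        ring
      rw [Finset.sum_congr rfl fun k _ => h2 k, Finset.sum_add_distrib, ← Finset.sum_mul,
        ← Finset.mul_sum]
      congr 2
      rw [Finset.sum_eq_single j]
      · simp
      · intro k _ hk
        rw [Pi.single_eq_of_ne (Ne.symm hk), mul_zero]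
      · simp
    rw [map_mul, pderiv_mul, hp, h1, map_add, map_mul, map_mul]
    congr 2
    unfold th
    rw [aeval_X, map_add, pderiv_C_mul, pderiv_X_self, mul_one, algHom_C, algebraMap_eq]
    by_cases hj : j = i
    · rw [if_pos hj, map_zero, zero_add]
    · rw [if_neg hj, pderiv_X_of_ne hj, zero_add]

omit [DecidableEq σ] in
theorem notMem_vars {i : σ} {g : MvPolynomial σ ℂ} (h : pderiv i g = 0) : i ∉ g.vars := by
  classical
  intro hi
  obtain ⟨d, hd, hdi⟩ := (mem_vars_iff_mem_support i).1 hi
  rw [Finsupp.mem_support_iff] at hdi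
  have h1 := coeff_pderiv (i := i) g (d - Finsupp.single i 1)
  have h2 : d - Finsupp.single i 1 + Finsupp.single i 1 = d := by
    ext j
    by_cases hj : j = i
    · subst hj
      simp
      omega
    · simp [Finsupp.single_apply, Ne.symm hj]
  rw [h, coeff_zero, h2] at h1
  rw [mem_support_iff] at hd
  have h3 : (((d - Finsupp.single i 1 : σ →₀ ℕ) i : ℕ) : ℂ) + 1 ≠ 0 := by
    exact Nat.cast_add_one_ne_zero _
  have h4 := mul_eq_zero.1 h1.symm
  rcases h4 with h4 | h4
  · exact hd h4
  · exact h3 h4

omit [DecidableEq σ] in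
theorem algHom_congr {B : Type} [CommRing B] [Algebra ℂ B] {g : MvPolynomial σ ℂ}
    (φ ψ : MvPolynomial σ ℂ →ₐ[ℂ] B) (h : ∀ j ∈ g.vars, φ (X j) = ψ (X j)) : φ g = ψ g := by
  have := hom_congr_vars (f₁ := φ.toRingHom) (f₂ := ψ.toRingHom) (p₁ := g) (p₂ := g)
    (by ext a; simp [algHom_C]) (fun j hj _ => h j hj) rfl
  exact this

/-- **Slices.** If a directional derivative of `f` is a nonzero constant then `f` is a
coordinate. -/
theorem coordinate_of_slice [Fintype σ] {f : MvPolynomial σ ℂ} {v : σ → ℂ} {c : ℂ} (hc : c ≠ 0)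
    (h : ∑ j, C (v j) * pderiv j f = C c) : IsCoordinate f := by
  classical
  obtain ⟨i, hi⟩ : ∃ i, v i ≠ 0 := by
    by_contra hcon
    push Not at hcon
    apply hc
    rw [Finset.sum_eq_zero (fun j _ => by rw [hcon j, C_0, zero_mul])] at h
    exact C_eq_zero.1 h.symm
  set e1 : MvPolynomial σ ℂ ≃ₐ[ℂ] MvPolynomial σ ℂ :=
    AlgEquiv.ofAlgHom (th v i) (th' v i) (th_th' hi) (th'_th hi) with he1
  set hh := th v i f with hhh
  have hd : pderiv i hh = C c := by
    rw [hhh, pderiv_th, h, algHom_C, algebraMap_eq]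
  set g := hh - C c * X i with hg
  have hgi : i ∉ g.vars := notMem_vars (by
    rw [hg, map_sub, hd, pderiv_C_mul, pderiv_X_self, mul_one, sub_self])
  let ε : MvPolynomial σ ℂ →ₐ[ℂ] MvPolynomial σ ℂ :=
    aeval fun j => if j = i then C c⁻¹ * (X i - g) else X j
  let ε' : MvPolynomial σ ℂ →ₐ[ℂ] MvPolynomial σ ℂ :=
    aeval fun j => if j = i then C c * X i + g else X j
  have hεg : ε g = g := by
    have := algHom_congr (g := g) ε (AlgHom.id ℂ _) (fun j hj => by
      have hji : j ≠ i := fun h => hgi (h ▸ hj)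
      simp [ε, hji])
    simpa using this
  have hε'g : ε' g = g := by
    have := algHom_congr (g := g) ε' (AlgHom.id ℂ _) (fun j hj => by
      have hji : j ≠ i := fun h => hgi (h ▸ hj)
      simp [ε', hji])
    simpa using this
  have h1 : ε.comp ε' = AlgHom.id ℂ _ := by
    refine MvPolynomial.algHom_ext fun j => ?_
    rw [AlgHom.comp_apply, AlgHom.id_apply]
    by_cases hj : j = i
    · subst hj
      have : ε' (X j) = C c * X j + g := by simp [ε']
      rw [this, map_add, hεg, map_mul, algHom_C, algebraMap_eq]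
      have h2 : ε (X j) = C c⁻¹ * (X j - g) := by simp [ε]
      rw [h2, ← mul_assoc, ← C_mul, mul_inv_cancel₀ hc, C_1]
      ring
    · have : ε' (X j) = X j := by simp [ε', hj]
      rw [this]
      simp [ε, hj]
  have h2 : ε'.comp ε = AlgHom.id ℂ _ := by
    refine MvPolynomial.algHom_ext fun j => ?_
    rw [AlgHom.comp_apply, AlgHom.id_apply]
    by_cases hj : j = i
    · subst hj
      have : ε (X j) = C c⁻¹ * (X j - g) := by simp [ε]
      rw [this, map_mul, map_sub, hε'g, algHom_C, algebraMap_eq]
      have h2 : ε' (X j) = C c * X j + g := by simp [ε']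
      rw [h2, add_sub_cancel_right, ← mul_assoc, ← C_mul, inv_mul_cancel₀ hc, C_1, one_mul]
    · have : ε (X j) = X j := by simp [ε, hj]
      rw [this]
      simp [ε', hj]
  refine ⟨e1.trans (AlgEquiv.ofAlgHom ε ε' h1 h2), i, ?_⟩
  have h3 : e1 f = C c * X i + g := by
    change th v i f = _
    rw [hg]
    ring
  rw [AlgEquiv.trans_apply, h3]
  change ε (C c * X i + g) = X i
  rw [map_add, hεg, map_mul, algHom_C, algebraMap_eq]
  have h4 : ε (X i) = C c⁻¹ * (X i - g) := by simp [ε]
  rw [h4, ← mul_assoc, ← C_mul, mul_inv_cancel₀ hc, C_1]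
  ring

end Slice

/-- **Critical points.** A stable coordinate has no critical point. -/
theorem no_critical {n : ℕ} {f : MvPolynomial (Fin n) ℂ} (hf : IsStableCoordinate f)
    (p : Fin n → ℂ) : ∃ j, eval p (pderiv j f) ≠ 0 := by
  classical
  obtain ⟨m, -, φ, i, hφ⟩ := hf
  by_contra hcon
  push Not at hcon
  let ev : MvPolynomial (Fin m) (MvPolynomial (Fin n) ℂ) →+* ℂ :=
    (eval p).comp (eval (fun _ => (0 : MvPolynomial (Fin n) ℂ)))
  let δ : MvPolynomial (Fin n) ℂ → ℂ := fun g => ev (φ.symm (pderiv i (φ (C g))))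
  have hev : ∀ g, ev (C g) = eval p g := by
    intro g
    simp [ev]
  have hadd : ∀ g h, δ (g + h) = δ g + δ h := by
    intro g h
    simp only [δ, map_add]
  have hmul : ∀ g h, δ (g * h) = eval p h * δ g + eval p g * δ h := by
    intro g h
    simp only [δ, C_mul, map_mul, pderiv_mul, map_add, AlgEquiv.symm_apply_apply, hev]
    ring
  have hC : ∀ a : ℂ, δ (C a) = 0 := by
    intro a
    have h1 : (C (C a : MvPolynomial (Fin n) ℂ) : MvPolynomial (Fin m) (MvPolynomial (Fin n) ℂ)) =
        algebraMap ℂ _ a := rfl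
    simp only [δ, h1, AlgEquiv.commutes, algebraMap_eq, pderiv_C, map_zero]
  have key : ∀ g, δ g = ∑ j, δ (X j) * eval p (pderiv j g) := by
    intro g
    induction g using MvPolynomial.induction_on with
    | C a => simp [hC]
    | add g h hg hh =>
      rw [hadd, hg, hh, ← Finset.sum_add_distrib]
      exact Finset.sum_congr rfl fun j _ => by rw [map_add, map_add]; ring
    | mul_X g k hg =>
      rw [hmul, hg, Finset.mul_sum]
      have h2 : ∀ j, δ (X j) * eval p (pderiv j (g * X k)) =
          eval p (X k) * (δ (X j) * eval p (pderiv j g)) +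
            eval p g * (if k = j then δ (X j) else 0) := by
        intro j
        rw [pderiv_mul, pderiv_X, map_add, map_mul, map_mul]
        by_cases hj : k = j
        · subst hj
          simp
          ring
        · rw [Pi.single_eq_of_ne hj, if_neg hj]
          simp
          ring
      rw [Finset.sum_congr rfl fun j _ => h2 j, Finset.sum_add_distrib, ← Finset.mul_sum,
        ← Finset.mul_sum]
      simp
  have h1 : δ f = 1 := by
    simp only [δ]
    rw [hφ, pderiv_X_self, map_one, map_one]
  rw [key f, Finset.sum_eq_zero (fun j _ => by rw [hcon j, mul_zero])] at h1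
  exact zero_ne_one h1

end Vale.Agent.P295
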